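import Vale.Agent.Lib.P162L2.Final

/-!
The Thorp shuffle of `2^(d+1)` cards mixes in `O(d^2)` shuffles.
-/

open P162

namespace Vale.Agent.Results.P162.ThorpSquare

/-- For a deck of `n = 2^(d+1)` cards and every `t ≥ 7200 (d+1)^2 = 7200 (log₂ n)^2`, the law
`qPow d t` of the permutation after `t` Thorp shuffles is within `1/4` of the uniform law on the
symmetric group in total variation.  Here `q d` is the law of one shuffle: with `N = 2^d` and
`0`-indexed positions, the cards in positions `i` and `N + i` go to positions `2i` and `2i+1`, in
the order given by the fair coin `b i`; `qPow` is the convolution power. -/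
theorem result (d t : ℕ) (ht : 7200 * (d + 1) ^ 2 ≤ t) :
    tvDist (qPow d t) (unifLaw d) ≤ 1 / 4 :=
  Vale.Agent.Lib.P162L2.thorp_mixing_sq d t ht

end Vale.Agent.Results.P162.ThorpSquare
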